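import Vale.Agent.P207.Q.CobFlow

/-!
# P207: weak derivatives along a measure preserving flow

If `a` has the weak derivative `g` along a measure preserving flow, then `∫ a g = 0`.
-/

open MeasureTheory Filter Set Topology

noncomputable section

namespace Vale.Agent.P207.Q.H545

variable {Ω : Type*} [MeasurableSpace Ω] {m : Measure Ω} [IsProbabilityMeasure m]
  {φ : ℝ → Ω → Ω}

lemma int_bdd {m : Measure Ω} [IsProbabilityMeasure m] {f : Ω → ℝ} {K : ℝ} (hf : Measurable f)
    (hK : ∀ x, |f x| ≤ K) : Integrable f m :=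
  Integrable.of_bound hf.aestronglyMeasurable K (Eventually.of_forall hK)

/-- the derivative of `s ↦ ∫ a (χ ∘ φ_s)` -/
theorem hasDerivAt_pair (hφ : MFlow m φ) {a : Ω → ℝ} {K : ℝ} (ha : Measurable a)
    (haK : ∀ x, |a x| ≤ K) {χ χ' : Ω → ℝ} {B : ℝ} (hχ : Measurable χ) (hχ' : Measurable χ')
    (hχB : ∀ x, |χ x| ≤ B) (hχ'B : ∀ x, |χ' x| ≤ B)
    (hd : ∀ x s, HasDerivAt (fun t => χ (φ t x)) (χ' (φ s x)) s) (s : ℝ) :
    HasDerivAt (fun s => ∫ x, a x * χ (φ s x) ∂m) (∫ x, a x * χ' (φ s x) ∂m) s := by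
  have hK0 : ∀ x : Ω, 0 ≤ K := fun x => (abs_nonneg _).trans (haK x)
  refine (hasDerivAt_integral_of_dominated_loc_of_deriv_le (μ := m) (s := univ)
    (F := fun s x => a x * χ (φ s x)) (F' := fun s x => a x * χ' (φ s x))
    (bound := fun _ => K * B) Filter.univ_mem ?_ ?_ ?_ ?_ (integrable_const _) ?_).2
  · exact Eventually.of_forall fun t => (ha.mul (hχ.comp (hφ.meas_t t))).aestronglyMeasurable
  · refine int_bdd (K := K * B) (ha.mul (hχ.comp (hφ.meas_t s))) fun x => ?_
    rw [abs_mul]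
    exact mul_le_mul (haK x) (hχB _) (abs_nonneg _) (hK0 x)
  · exact (ha.mul (hχ'.comp (hφ.meas_t s))).aestronglyMeasurable
  · refine Eventually.of_forall fun x t _ => ?_
    rw [Real.norm_eq_abs, abs_mul]
    exact mul_le_mul (haK x) (hχ'B _) (abs_nonneg _) (hK0 x)
  · exact Eventually.of_forall fun x t _ => (hd x t).const_mul (a x)

/-- **Weak product rule.** `a`, `g` bounded, `g` the weak derivative of `a` along the flow (tested
against a flow invariant class `𝒯` of functions approximating `a` in `L¹`): then `∫ a g = 0`. -/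
theorem integral_mul_weakDeriv (hφ : MFlow m φ) {a g : Ω → ℝ} {K : ℝ}
    (ha : Measurable a) (hg : Measurable g) (haK : ∀ x, |a x| ≤ K) (hgK : ∀ x, |g x| ≤ K)
    (𝒯 : Set (Ω → ℝ)) (X : (Ω → ℝ) → Ω → ℝ)
    (hT : ∀ χ ∈ 𝒯, Measurable χ ∧ Measurable (X χ) ∧ ∃ B, ∀ x, |χ x| ≤ B ∧ |X χ x| ≤ B)
    (hTφ : ∀ χ ∈ 𝒯, ∀ s, (fun x => χ (φ s x)) ∈ 𝒯 ∧
      X (fun x => χ (φ s x)) = fun x => X χ (φ s x))
    (hd : ∀ χ ∈ 𝒯, ∀ x s, HasDerivAt (fun t => χ (φ t x)) (X χ (φ s x)) s)
    (hdense : ∀ ε > 0, ∃ χ ∈ 𝒯, ∫ x, |a x - χ x| ∂m ≤ ε)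
    (hw : ∀ χ ∈ 𝒯, ∫ x, a x * X χ x ∂m = - ∫ x, g x * χ x ∂m) :
    ∫ x, a x * g x ∂m = 0 := by
  obtain ⟨x₀⟩ : Nonempty Ω := by
    by_contra h
    rw [not_nonempty_iff] at h
    have : m univ = 0 := by simp [Subsingleton.elim (univ : Set Ω) ∅]
    simp at this
  have hK0 : 0 ≤ K := (abs_nonneg _).trans (haK x₀)
  have ia : Integrable a m := int_bdd ha haK
  -- the functions `G_χ` and their uniform approximation
  set G : (Ω → ℝ) → ℝ → ℝ := fun χ r => ∫ x, g x * χ (φ r x) ∂m with hG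
  set A : (Ω → ℝ) → ℝ → ℝ := fun χ r => ∫ x, a x * χ (φ r x) ∂m with hA
  have happ : ∀ (f : Ω → ℝ), Measurable f → (∀ x, |f x| ≤ K) → ∀ χ : Ω → ℝ, Measurable χ →
      (∃ B, ∀ x, |χ x| ≤ B) → ∀ r, |∫ x, f x * a (φ r x) ∂m - ∫ x, f x * χ (φ r x) ∂m| ≤
        K * ∫ x, |a x - χ x| ∂m := by
    rintro f hf hfK χ hχ ⟨B, hB⟩ r
    have i1 : Integrable (fun x => f x * a (φ r x)) m :=
      int_bdd (K := K * K) (hf.mul (ha.comp (hφ.meas_t r))) fun x => by
        rw [abs_mul]; exact mul_le_mul (hfK x) (haK _) (abs_nonneg _) hK0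
    have i2 : Integrable (fun x => f x * χ (φ r x)) m :=
      int_bdd (K := K * B) (hf.mul (hχ.comp (hφ.meas_t r))) fun x => by
        rw [abs_mul]; exact mul_le_mul (hfK x) (hB _) (abs_nonneg _) hK0
    have i3 : Integrable (fun x => |a x - χ x|) m := (ia.sub (int_bdd hχ hB)).abs
    rw [← integral_sub i1 i2, ← Real.norm_eq_abs]
    refine (norm_integral_le_integral_norm _).trans ?_
    have e3 : ∫ x, K * |a (φ r x) - χ (φ r x)| ∂m = K * ∫ x, |a x - χ x| ∂m := by
      rw [integral_const_mul]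
      congr 1
      exact hφ.integral_comp r (f := fun x => |a x - χ x|)
        ((ha.sub hχ).norm.aestronglyMeasurable)
    rw [← e3]
    refine integral_mono (i1.sub i2).norm
      (((hφ.mp r).integrable_comp_of_integrable i3).const_mul K) fun x => ?_
    simp only [Real.norm_eq_abs]
    rw [← mul_sub, abs_mul]
    exact mul_le_mul_of_nonneg_right (hfK x) (abs_nonneg _)
  -- continuity of `G χ` and the integrated formula
  have hcont : ∀ χ ∈ 𝒯, Continuous (G χ) := by
    intro χ hχ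
    obtain ⟨h1, h2, B, hB⟩ := hT χ hχ
    rw [continuous_iff_continuousAt]
    exact fun s => (hasDerivAt_pair hφ hg hgK h1 h2 (fun x => (hB x).1) (fun x => (hB x).2)
      (hd χ hχ) s).continuousAt
  have hder : ∀ χ ∈ 𝒯, ∀ s, HasDerivAt (A χ) (- G χ s) s := by
    intro χ hχ s
    obtain ⟨h1, h2, B, hB⟩ := hT χ hχ
    have h := hasDerivAt_pair hφ ha haK h1 h2 (fun x => (hB x).1) (fun x => (hB x).2)
      (hd χ hχ) s
    have e := hw _ (hTφ χ hχ s).1
    rw [(hTφ χ hχ s).2] at e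
    rwa [e] at h
  have hint : ∀ χ ∈ 𝒯, ∀ s, A χ s - A χ (-s) = - ∫ r in (-s)..s, G χ r := by
    intro χ hχ s
    rw [← intervalIntegral.integral_neg]
    exact (intervalIntegral.integral_eq_sub_of_hasDerivAt (fun r _ => hder χ hχ r)
      ((hcont χ hχ).neg.intervalIntegrable _ _)).symm
  -- sequence of approximations
  have hseq : ∀ n : ℕ, ∃ χ ∈ 𝒯, ∫ x, |a x - χ x| ∂m ≤ 1 / ((n : ℝ) + 1) :=
    fun n => hdense _ (by positivity)
  choose c hc hcn using hseq
  have hz : Tendsto (fun n : ℕ => K * (1 / ((n : ℝ) + 1))) atTop (𝓝 0) := by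
    simpa using (tendsto_one_div_add_atTop_nhds_zero_nat (𝕜 := ℝ)).const_mul K
  have hGn : ∀ n r, |G a r - G (c n) r| ≤ K * (1 / ((n : ℝ) + 1)) := fun n r => by
    obtain ⟨h1, h2, B, hB⟩ := hT _ (hc n)
    exact (happ g hg hgK _ h1 ⟨B, fun x => (hB x).1⟩ r).trans
      (mul_le_mul_of_nonneg_left (hcn n) hK0)
  have hAn : ∀ n r, |A a r - A (c n) r| ≤ K * (1 / ((n : ℝ) + 1)) := fun n r => by
    obtain ⟨h1, h2, B, hB⟩ := hT _ (hc n)
    exact (happ a ha haK _ h1 ⟨B, fun x => (hB x).1⟩ r).trans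
      (mul_le_mul_of_nonneg_left (hcn n) hK0)
  have hGu : TendstoUniformly (fun n => G (c n)) (G a) atTop := by
    rw [Metric.tendstoUniformly_iff]
    intro ε hε
    filter_upwards [(Metric.tendsto_atTop.1 hz ε hε).choose_spec |>
      fun h => eventually_atTop.2 ⟨_, h⟩] with n hn r
    rw [Real.dist_eq]
    refine (hGn n r).trans_lt ?_
    rw [Real.dist_0_eq_abs] at hn
    exact (le_abs_self _).trans_lt hn
  have hGc : Continuous (G a) := hGu.continuous (Frequently.of_forall fun n => hcont _ (hc n))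
  have hAlim : ∀ s, Tendsto (fun n => A (c n) s) atTop (𝓝 (A a s)) := fun s => by
    rw [tendsto_iff_norm_sub_tendsto_zero]
    refine squeeze_zero (fun _ => norm_nonneg _) (fun n => ?_) hz
    rw [Real.norm_eq_abs, abs_sub_comm]
    exact hAn n s
  have hGlim : ∀ s, Tendsto (fun n => ∫ r in (-s)..s, G (c n) r) atTop
      (𝓝 (∫ r in (-s)..s, G a r)) := fun s => by
    rw [tendsto_iff_norm_sub_tendsto_zero]
    have hz' : Tendsto (fun n : ℕ => K * (1 / ((n : ℝ) + 1)) * |s - -s|) atTop (𝓝 0) := by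
      simpa using hz.mul_const |s - -s|
    refine squeeze_zero (fun _ => norm_nonneg _) (fun n => ?_) hz'
    rw [← intervalIntegral.integral_sub ((hcont _ (hc n)).intervalIntegrable _ _)
      (hGc.intervalIntegrable _ _)]
    refine intervalIntegral.norm_integral_le_of_norm_le_const fun r _ => ?_
    rw [Real.norm_eq_abs, abs_sub_comm]
    exact hGn n r
  have hintA : ∀ s, A a s - A a (-s) = - ∫ r in (-s)..s, G a r := fun s =>
    tendsto_nhds_unique ((hAlim s).sub (hAlim (-s)))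
      (by simpa only [hint _ (hc _) s] using (hGlim s).neg)
  -- evenness
  have heven : ∀ s, A a s = A a (-s) := fun s => by
    have h := hφ.integral_comp (-s) (f := fun x => a x * a (φ s x))
      (ha.mul (ha.comp (hφ.meas_t s))).aestronglyMeasurable
    simp only [hA]
    rw [← h]
    refine integral_congr_ae (Eventually.of_forall fun x => ?_)
    simp only
    rw [← hφ.add, add_neg_cancel, hφ.zero, mul_comm]
  have hzero : ∀ s, ∫ r in (-s)..s, G a r = 0 := fun s => by
    have := hintA s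
    rw [heven s, sub_self] at this
    linarith
  -- conclusion
  have hGa : G a 0 = 0 := by
    have hD : HasDerivAt (fun s => ∫ r in (-s)..s, G a r) (G a 0 - G a 0 * (-1)) 0 := by
      have h1 : HasDerivAt (fun s => ∫ r in (0 : ℝ)..s, G a r) (G a 0) 0 :=
        intervalIntegral.integral_hasDerivAt_right (hGc.intervalIntegrable _ _)
          (hGc.stronglyMeasurableAtFilter _ _) hGc.continuousAt
      have h1' : HasDerivAt (fun s => ∫ r in (0 : ℝ)..s, G a r) (G a 0) (-(0 : ℝ)) := by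
        rwa [neg_zero]
      have h2 : HasDerivAt (fun s : ℝ => ∫ r in (0 : ℝ)..(-s), G a r) (G a 0 * (-1)) 0 :=
        h1'.comp (0 : ℝ) (hasDerivAt_neg (0 : ℝ))
      refine (h1.sub h2).congr_of_eventuallyEq (Eventually.of_forall fun s => ?_)
      simp only [Pi.sub_apply]
      rw [← intervalIntegral.integral_add_adjacent_intervals
        (hGc.intervalIntegrable (-s) 0) (hGc.intervalIntegrable 0 s),
        intervalIntegral.integral_symm 0 (-s)]
      ring
    have hD0 : HasDerivAt (fun s => ∫ r in (-s)..s, G a r) 0 0 := by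
      simp only [hzero]
      exact hasDerivAt_const _ _
    have := hD.unique hD0
    linarith
  have : G a 0 = ∫ x, g x * a x ∂m := by simp only [hG, hφ.zero]
  rw [this] at hGa
  simpa only [mul_comm] using hGa

end Vale.Agent.P207.Q.H545
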