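import Mathlib.MeasureTheory.Integral.Bochner.Basic
import Mathlib.MeasureTheory.Integral.Bochner.Set
import Mathlib.MeasureTheory.Measure.OpenPos
import Mathlib.MeasureTheory.Function.LocallyIntegrable
import Mathlib.Analysis.Complex.Basic

/-!
# P207: the key identity of the quarter-pinched rigidity theorem in dimension three

The sum of the three integral identities (N), (S), (Y) is a sum of squares; with the pinching
inequality every square vanishes.
-/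

open MeasureTheory Complex ComplexConjugate

noncomputable section

namespace Vale.Agent.P207.Q.H545

/-- the integrand of (N): `|v|² + 2|p|² + 2 Re(a̅ b v̅) - 4 Re(a̅ b̅ β₃)`, `p = v/2 + β₁` -/
def fN (a b v β₁ β₃ : ℂ) : ℝ :=
  ‖v‖ ^ 2 + 2 * ‖v / 2 + β₁‖ ^ 2 + 2 * (conj a * b * conj v).re - 4 * (conj a * conj b * β₃).re

/-- the integrand of (S) -/
def fS (b β₁ β₃ : ℂ) : ℝ := ‖β₃‖ ^ 2 - ‖β₁‖ ^ 2 + 4 * ‖b‖ ^ 2

/-- the integrand of (Y) for the function `lam`, `xlam` its derivative along the flow -/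
def fY (lam xlam t : ℝ) (a b v β₁ : ℂ) : ℝ :=
  xlam * ‖a‖ ^ 2 + lam * (3 * (conj a * v).re + 2 * (conj a * β₁).re + t * ‖a‖ ^ 2
    + 2 * (b * conj a ^ 2).re)

/-- the sum of squares -/
def fQ (lam xlam t : ℝ) (a b v β₁ β₃ : ℂ) : ℝ :=
  ‖β₃ - 2 * a * b‖ ^ 2 + ‖β₁ + v + lam * a‖ ^ 2 + 1 / 2 * ‖v + lam * a + 2 * conj a * b‖ ^ 2
    + 4 * ‖b‖ ^ 2 + (xlam + lam * t - 3 / 2 * lam ^ 2 - 6 * ‖b‖ ^ 2) * ‖a‖ ^ 2

lemma nsq (z : ℂ) : ‖z‖ ^ 2 = z.re * z.re + z.im * z.im := by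
  rw [← Complex.normSq_eq_norm_sq, Complex.normSq_apply]

/-- **KEY** (pointwise) -/
theorem key_pointwise (lam xlam t : ℝ) (a b v β₁ β₃ : ℂ) :
    fN a b v β₁ β₃ + fS b β₁ β₃ + fY lam xlam t a b v β₁ = fQ lam xlam t a b v β₁ β₃ := by
  unfold fN fS fY fQ
  simp only [nsq, Complex.add_re, Complex.add_im,
    Complex.sub_re, Complex.sub_im, Complex.mul_re, Complex.mul_im, Complex.conj_re,
    Complex.conj_im, Complex.ofReal_re, Complex.ofReal_im, Complex.re_ofNat, Complex.im_ofNat,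
    Complex.div_ofNat_re, Complex.div_ofNat_im, pow_two (conj a)]
  ring

/-- the pinching inequality: `u₁ ≥ u₂ ≥ lam`, `u₁ - u₂ < lam`, `2|b| = u₁ - u₂` -/
theorem pinch_pos {lam u₁ u₂ B : ℝ} (h2 : lam ≤ u₂) (h12 : u₂ ≤ u₁) (h : u₁ - u₂ < lam)
    (hB : 4 * B = (u₁ - u₂) ^ 2) :
    0 < lam * (u₁ + u₂) - 3 / 2 * lam ^ 2 - 6 * B := by
  have hd : 0 ≤ u₁ - u₂ := by linarith
  have hl : 0 < lam := by linarith
  have h1 : 6 * B = 3 / 2 * (u₁ - u₂) ^ 2 := by linarith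
  have h3 : lam * (2 * lam + (u₁ - u₂)) ≤ lam * (u₁ + u₂) := by
    refine mul_le_mul_of_nonneg_left ?_ hl.le
    linarith
  have h4 : 0 < (lam - (u₁ - u₂)) * (lam + 3 * (u₁ - u₂)) :=
    mul_pos (by linarith) (by linarith)
  nlinarith

variable {P : Type*} [TopologicalSpace P] [CompactSpace P] [MeasurableSpace P] [BorelSpace P]
  {m : Measure P} [IsFiniteMeasure m]

/-- **KEY** (integrated, `lam` constant): all squares vanish. -/
theorem key [m.IsOpenPosMeasure] {a b v β₁ β₃ : P → ℂ} {t : P → ℝ} {lam : ℝ}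
    (ha : Continuous a) (hb : Continuous b) (hv : Continuous v) (h1 : Continuous β₁)
    (h3 : Continuous β₃) (ht : Continuous t)
    (hc : ∀ p, 0 < lam * t p - 3 / 2 * lam ^ 2 - 6 * ‖b p‖ ^ 2)
    (hN : ∫ p, fN (a p) (b p) (v p) (β₁ p) (β₃ p) ∂m = 0)
    (hS : ∫ p, fS (b p) (β₁ p) (β₃ p) ∂m = 0)
    (hY : ∫ p, fY lam 0 (t p) (a p) (b p) (v p) (β₁ p) ∂m = 0) :
    a = 0 ∧ b = 0 ∧ v = 0 ∧ β₁ = 0 ∧ β₃ = 0 := by
  have cN : Continuous fun p => fN (a p) (b p) (v p) (β₁ p) (β₃ p) := by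
    unfold fN; fun_prop
  have cS : Continuous fun p => fS (b p) (β₁ p) (β₃ p) := by
    unfold fS; fun_prop
  have cY : Continuous fun p => fY lam 0 (t p) (a p) (b p) (v p) (β₁ p) := by
    unfold fY; fun_prop
  have cQ : Continuous fun p => fQ lam 0 (t p) (a p) (b p) (v p) (β₁ p) (β₃ p) := by
    unfold fQ; fun_prop
  have iN := cN.integrable_of_hasCompactSupport (μ := m) (HasCompactSupport.of_compactSpace _)
  have iS := cS.integrable_of_hasCompactSupport (μ := m) (HasCompactSupport.of_compactSpace _)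
  have iY := cY.integrable_of_hasCompactSupport (μ := m) (HasCompactSupport.of_compactSpace _)
  have hQ : ∫ p, fQ lam 0 (t p) (a p) (b p) (v p) (β₁ p) (β₃ p) ∂m = 0 := by
    have : (fun p => fQ lam 0 (t p) (a p) (b p) (v p) (β₁ p) (β₃ p)) = fun p =>
        (fN (a p) (b p) (v p) (β₁ p) (β₃ p) + fS (b p) (β₁ p) (β₃ p)) +
          fY lam 0 (t p) (a p) (b p) (v p) (β₁ p) := by
      funext p; exact (key_pointwise _ _ _ _ _ _ _ _).symm
    have e1 := integral_add (iN.add iS) iY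
    have e2 := integral_add iN iS
    simp only [Pi.add_apply] at e1
    rw [this, e1, e2, hN, hS, hY]
    simp
  have hc' : ∀ p, 0 ≤ (0 + lam * t p - 3 / 2 * lam ^ 2 - 6 * ‖b p‖ ^ 2) * ‖a p‖ ^ 2 := fun p =>
    mul_nonneg (by linarith [hc p]) (by positivity)
  have hQ0 : ∀ p, 0 ≤ fQ lam 0 (t p) (a p) (b p) (v p) (β₁ p) (β₃ p) := fun p => by
    unfold fQ
    have := hc' p
    positivity
  have hz : (fun p => fQ lam 0 (t p) (a p) (b p) (v p) (β₁ p) (β₃ p)) = 0 := by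
    have h := (integral_eq_zero_iff_of_nonneg (μ := m) (fun p => hQ0 p)
      (cQ.integrable_of_hasCompactSupport (HasCompactSupport.of_compactSpace _))).1 hQ
    exact Continuous.ae_eq_iff_eq m cQ continuous_const |>.1 h
  have hz' : ∀ p, b p = 0 ∧ a p = 0 ∧ v p = 0 ∧ β₁ p = 0 ∧ β₃ p = 0 := by
    intro p
    have h0 : fQ lam 0 (t p) (a p) (b p) (v p) (β₁ p) (β₃ p) = 0 := congrFun hz p
    unfold fQ at h0
    have e1 : (0 : ℝ) ≤ ‖β₃ p - 2 * a p * b p‖ ^ 2 := by positivity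
    have e2 : (0 : ℝ) ≤ ‖β₁ p + v p + lam * a p‖ ^ 2 := by positivity
    have e3 : (0 : ℝ) ≤ 1 / 2 * ‖v p + lam * a p + 2 * conj (a p) * b p‖ ^ 2 := by positivity
    have e4 : (0 : ℝ) ≤ 4 * ‖b p‖ ^ 2 := by positivity
    have e5 := hc' p
    have hb0 : b p = 0 := by
      have : ‖b p‖ ^ 2 = 0 := by linarith
      simpa using this
    have ha0 : a p = 0 := by
      have h5 : (0 + lam * t p - 3 / 2 * lam ^ 2 - 6 * ‖b p‖ ^ 2) * ‖a p‖ ^ 2 = 0 := by linarith
      rcases mul_eq_zero.1 h5 with h6 | h6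
      · exact absurd h6 (by linarith [hc p])
      · simpa using h6
    have hv0 : v p = 0 := by
      have h6 : ‖v p + lam * a p + 2 * conj (a p) * b p‖ ^ 2 = 0 := by linarith
      simpa [ha0, hb0] using h6
    have h10 : β₁ p = 0 := by
      have h6 : ‖β₁ p + v p + lam * a p‖ ^ 2 = 0 := by linarith
      simpa [ha0, hv0] using h6
    have h30 : β₃ p = 0 := by
      have h6 : ‖β₃ p - 2 * a p * b p‖ ^ 2 = 0 := by linarith
      simpa [ha0, hb0] using h6
    exact ⟨hb0, ha0, hv0, h10, h30⟩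
  exact ⟨funext fun p => (hz' p).2.1, funext fun p => (hz' p).1, funext fun p => (hz' p).2.2.1,
    funext fun p => (hz' p).2.2.2.1, funext fun p => (hz' p).2.2.2.2⟩

end Vale.Agent.P207.Q.H545
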